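import Vale.Agent.Helper16.KTV.Defs

/-!
Module D of the bipartite switch-chain project (problem P335):
two-row fibres of the set of binary tables with fixed margins are Johnson
graphs, whose Laplacian gap is at least `2`.
-/

set_option linter.unusedSectionVars false

namespace KTV

open Finset

namespace JD

section Abstract

variable {β : Type*} [DecidableEq β]

/-- Dirichlet form of the Johnson graph on the `k`-subsets of `J`
(every edge counted twice). -/
noncomputable def jD (J : Finset β) (k : ℕ) (g : Finset β → ℝ) : ℝ :=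
  ∑ S ∈ J.powersetCard k, ∑ i ∈ S, ∑ j ∈ J \ S, (g S - g (insert j (S.erase i))) ^ 2

/-- Cardinality times the sum of the squared deviations from the mean. -/
noncomputable def jV {X : Type*} (P : Finset X) (g : X → ℝ) : ℝ :=
  (P.card : ℝ) * ∑ S ∈ P, g S ^ 2 - (∑ S ∈ P, g S) ^ 2

theorem jD_nonneg (J : Finset β) (k : ℕ) (g : Finset β → ℝ) : 0 ≤ jD J k g := by
  unfold jD
  exact sum_nonneg fun S _ => sum_nonneg fun i _ => sum_nonneg fun j _ => sq_nonneg _

theorem jV_eq_zero_of_card_le_one {X : Type*} (P : Finset X) (g : X → ℝ) (h : P.card ≤ 1) :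
    jV P g = 0 := by
  unfold jV
  rcases Nat.lt_or_ge P.card 1 with h0 | h1
  · have h0' : P = ∅ := by
      rw [← Finset.card_eq_zero]; omega
    subst h0'; simp
  · have h1' : P.card = 1 := le_antisymm h h1
    obtain ⟨x, rfl⟩ := Finset.card_eq_one.mp h1'
    simp

theorem swap_sum (J : Finset β) (k : ℕ) (F : Finset β → β → ℝ) :
    ∑ A ∈ J.powersetCard k, ∑ j ∈ J \ A, F A j
      = ∑ S ∈ J.powersetCard (k + 1), ∑ i ∈ S, F (S.erase i) i := by
  rw [Finset.sum_sigma', Finset.sum_sigma']
  refine Finset.sum_nbij' (fun p => ⟨insert p.2 p.1, p.2⟩) (fun p => ⟨p.1.erase p.2, p.2⟩)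
    ?_ ?_ ?_ ?_ ?_
  · rintro ⟨A, j⟩ h
    simp only [mem_sigma, mem_powersetCard, mem_sdiff] at h ⊢
    obtain ⟨⟨hA, hc⟩, hj, hjA⟩ := h
    refine ⟨⟨insert_subset hj hA, ?_⟩, mem_insert_self _ _⟩
    rw [card_insert_of_notMem hjA, hc]
  · rintro ⟨S, i⟩ h
    simp only [mem_sigma, mem_powersetCard, mem_sdiff] at h ⊢
    obtain ⟨⟨hS, hc⟩, hi⟩ := h
    refine ⟨⟨(erase_subset _ _).trans hS, ?_⟩, hS hi, notMem_erase _ _⟩
    rw [card_erase_of_mem hi, hc]; rfl
  · rintro ⟨A, j⟩ h
    simp only [mem_sigma, mem_powersetCard, mem_sdiff] at h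
    simp [erase_insert h.2.2]
  · rintro ⟨S, i⟩ h
    simp only [mem_sigma, mem_powersetCard] at h
    simp [insert_erase h.2]
  · rintro ⟨A, j⟩ h
    simp only [mem_sigma, mem_powersetCard, mem_sdiff] at h
    simp [erase_insert h.2.2]

theorem disj_aux {j0 : β} {J : Finset β} (hj0 : j0 ∉ J) (k : ℕ) :
    Disjoint (J.powersetCard (k + 1)) ((J.powersetCard k).image (insert j0)) := by
  rw [Finset.disjoint_left]
  intro S hS hS'
  rw [mem_image] at hS'
  obtain ⟨A, _, rfl⟩ := hS'
  exact hj0 ((mem_powersetCard.mp hS).1 (mem_insert_self _ _))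

theorem inj_aux {j0 : β} {J : Finset β} (hj0 : j0 ∉ J) (k : ℕ) :
    Set.InjOn (insert j0 : Finset β → Finset β) (J.powersetCard k : Set (Finset β)) := by
  intro A hA A' hA' h
  have hA0 : j0 ∉ A := fun h0 => hj0 ((mem_powersetCard.mp hA).1 h0)
  have hA0' : j0 ∉ A' := fun h0 => hj0 ((mem_powersetCard.mp hA').1 h0)
  have h2 := congrArg (fun T => T.erase j0) h
  simpa [erase_insert hA0, erase_insert hA0'] using h2

theorem jD_insert {j0 : β} {J : Finset β} (hj0 : j0 ∉ J) (k : ℕ) (g : Finset β → ℝ) :
    jD (insert j0 J) (k + 1) g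
      = jD J (k + 1) g + jD J k (fun A => g (insert j0 A))
        + 2 * ∑ A ∈ J.powersetCard k, ∑ j ∈ J \ A, (g (insert j0 A) - g (insert j A)) ^ 2 := by
  unfold jD
  rw [powersetCard_succ_insert hj0, sum_union (disj_aux hj0 k), sum_image (inj_aux hj0 k)]
  have h1 : ∑ S ∈ J.powersetCard (k + 1), ∑ i ∈ S, ∑ j ∈ insert j0 J \ S,
        (g S - g (insert j (S.erase i))) ^ 2
      = ∑ S ∈ J.powersetCard (k + 1), ∑ i ∈ S, ∑ j ∈ J \ S, (g S - g (insert j (S.erase i))) ^ 2
        + ∑ S ∈ J.powersetCard (k + 1), ∑ i ∈ S, (g S - g (insert j0 (S.erase i))) ^ 2 := by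
    rw [← sum_add_distrib]
    refine sum_congr rfl fun S hS => ?_
    have hS0 : j0 ∉ S := fun h0 => hj0 ((mem_powersetCard.mp hS).1 h0)
    rw [← sum_add_distrib]
    refine sum_congr rfl fun i hi => ?_
    rw [insert_sdiff_of_notMem _ hS0, sum_insert (by simp [hj0]), add_comm]
  have h2 : ∑ A ∈ J.powersetCard k, ∑ i ∈ insert j0 A, ∑ j ∈ insert j0 J \ insert j0 A,
        (g (insert j0 A) - g (insert j ((insert j0 A).erase i))) ^ 2
      = ∑ A ∈ J.powersetCard k, ∑ i ∈ A, ∑ j ∈ J \ A,
          (g (insert j0 A) - g (insert j0 (insert j (A.erase i)))) ^ 2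
        + ∑ A ∈ J.powersetCard k, ∑ j ∈ J \ A, (g (insert j0 A) - g (insert j A)) ^ 2 := by
    rw [← sum_add_distrib]
    refine sum_congr rfl fun A hA => ?_
    have hA0 : j0 ∉ A := fun h0 => hj0 ((mem_powersetCard.mp hA).1 h0)
    have hsd : insert j0 J \ insert j0 A = J \ A := by
      rw [insert_sdiff_insert, sdiff_insert_of_notMem hj0]
    rw [sum_insert hA0, hsd, erase_insert hA0, add_comm]
    congr 1
    refine sum_congr rfl fun i hi => ?_
    have hi0 : i ≠ j0 := fun h => hA0 (h ▸ hi)
    refine sum_congr rfl fun j hj => ?_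
    rw [erase_insert_of_ne hi0.symm, insert_comm]
  have h3 := swap_sum J k (fun A j => (g (insert j0 A) - g (insert j A)) ^ 2)
  have h4 : ∑ S ∈ J.powersetCard (k + 1), ∑ i ∈ S, (g S - g (insert j0 (S.erase i))) ^ 2
      = ∑ A ∈ J.powersetCard k, ∑ j ∈ J \ A, (g (insert j0 A) - g (insert j A)) ^ 2 := by
    rw [h3]
    refine sum_congr rfl fun S hS => sum_congr rfl fun i hi => ?_
    rw [insert_erase hi]; ring
  rw [h1, h2, h4]; ring

theorem johnson_alg (nA nB p q sA sB qA qB DA DB CA : ℝ)
    (hnA : 0 < nA) (hnB : 0 < nB) (hp : 1 ≤ p) (hq : 1 ≤ q) (hE : nA * p = nB * q)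
    (hCS : (p * sA - q * sB) ^ 2 ≤ nA * p * CA)
    (hA : 4 * (nA * qA - sA ^ 2) ≤ nA * DA) (hB : 4 * (nB * qB - sB ^ 2) ≤ nB * DB) :
    4 * ((nA + nB) * (qA + qB) - (sA + sB) ^ 2) ≤ (nA + nB) * (DB + DA + 2 * CA) := by
  have hp0 : 0 < p := by linarith
  have hE0 : 0 < nA * p := by positivity
  have hX : nA * nB * (p * sA - q * sB) = nA * p * (nB * sA - nA * sB) := by
    have h0 : nA * nB * (p * sA - q * sB) = nB * (nA * p) * sA - nA * (nB * q) * sB := by ring
    rw [h0, ← hE]; ring
  have h1 : (nA * p) ^ 2 * (nB * sA - nA * sB) ^ 2 ≤ (nA * nB) ^ 2 * (nA * p * CA) := by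
    have h0 : (nA * p) ^ 2 * (nB * sA - nA * sB) ^ 2 = (nA * nB) ^ 2 * (p * sA - q * sB) ^ 2 := by
      rw [← mul_pow, ← mul_pow, hX]
    rw [h0]
    exact mul_le_mul_of_nonneg_left hCS (by positivity)
  have h2 : (nA * p) * (nB * sA - nA * sB) ^ 2 ≤ (nA * nB) ^ 2 * CA := by
    have h0 : (nA * p) * ((nA * p) * (nB * sA - nA * sB) ^ 2)
        ≤ (nA * p) * ((nA * nB) ^ 2 * CA) := by
      calc (nA * p) * ((nA * p) * (nB * sA - nA * sB) ^ 2)
          = (nA * p) ^ 2 * (nB * sA - nA * sB) ^ 2 := by ring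
        _ ≤ (nA * nB) ^ 2 * (nA * p * CA) := h1
        _ = (nA * p) * ((nA * nB) ^ 2 * CA) := by ring
    exact le_of_mul_le_mul_left h0 hE0
  have h3 : (nA + nB) * (nA * p) = nA * nB * (p + q) := by
    have h0 : (nA + nB) * (nA * p) = nA * (nB * q) + nB * (nA * p) := by
      rw [← hE]; ring
    rw [h0]; ring
  have hX2 : 0 ≤ (nB * sA - nA * sB) ^ 2 := sq_nonneg _
  have hnn : 0 < nA * nB := by positivity
  have h4 : 2 * (nB * sA - nA * sB) ^ 2 ≤ (nA + nB) * (nA * nB) * CA := by
    have h5 : nA * nB * (p + q) * (nB * sA - nA * sB) ^ 2 ≤ (nA + nB) * ((nA * nB) ^ 2 * CA) := by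
      rw [← h3]
      calc (nA + nB) * (nA * p) * (nB * sA - nA * sB) ^ 2
          = (nA + nB) * ((nA * p) * (nB * sA - nA * sB) ^ 2) := by ring
        _ ≤ (nA + nB) * ((nA * nB) ^ 2 * CA) :=
            mul_le_mul_of_nonneg_left h2 (by positivity)
    have h6 : nA * nB * (2 * (nB * sA - nA * sB) ^ 2)
        ≤ nA * nB * ((nA + nB) * (nA * nB) * CA) := by
      have h7 : nA * nB * (2 * (nB * sA - nA * sB) ^ 2)
          ≤ nA * nB * (p + q) * (nB * sA - nA * sB) ^ 2 := by
        have h8 : 0 ≤ nA * nB * (nB * sA - nA * sB) ^ 2 * (p + q - 2) :=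
          mul_nonneg (mul_nonneg hnn.le hX2) (by linarith)
        linarith
      calc nA * nB * (2 * (nB * sA - nA * sB) ^ 2)
          ≤ nA * nB * (p + q) * (nB * sA - nA * sB) ^ 2 := h7
        _ ≤ (nA + nB) * ((nA * nB) ^ 2 * CA) := h5
        _ = nA * nB * ((nA + nB) * (nA * nB) * CA) := by ring
    exact le_of_mul_le_mul_left h6 hnn
  have hid : nA * nB * ((nA + nB) * (qA + qB) - (sA + sB) ^ 2)
      = (nA + nB) * nB * (nA * qA - sA ^ 2) + (nA + nB) * nA * (nB * qB - sB ^ 2)
        + (nB * sA - nA * sB) ^ 2 := by ring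
  have h7 : nA * nB * (4 * ((nA + nB) * (qA + qB) - (sA + sB) ^ 2))
      ≤ nA * nB * ((nA + nB) * (DB + DA + 2 * CA)) := by
    have e1 := mul_le_mul_of_nonneg_left hA (by positivity : 0 ≤ (nA + nB) * nB)
    have e2 := mul_le_mul_of_nonneg_left hB (by positivity : 0 ≤ (nA + nB) * nA)
    linarith
  exact le_of_mul_le_mul_left h7 hnn

theorem johnson_abs (J : Finset β) : ∀ (k : ℕ) (g : Finset β → ℝ),
    4 * jV (J.powersetCard k) g ≤ ((J.powersetCard k).card : ℝ) * jD J k g := by
  induction J using Finset.induction_on with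
  | empty =>
    intro k g
    have hc : ((∅ : Finset β).powersetCard k).card ≤ 1 := by
      rw [card_powersetCard, card_empty]
      rcases k with _ | k <;> simp
    rw [jV_eq_zero_of_card_le_one _ _ hc]
    rw [mul_zero]
    exact mul_nonneg (Nat.cast_nonneg _) (jD_nonneg (∅ : Finset β) k g)
  | insert j0 J hj0 ih =>
    intro k g
    rcases k with _ | k
    · have hc : ((insert j0 J).powersetCard 0).card ≤ 1 := by simp
      rw [jV_eq_zero_of_card_le_one _ _ hc]
      rw [mul_zero]
      exact mul_nonneg (Nat.cast_nonneg _) (jD_nonneg (insert j0 J) 0 g)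
    · have hdisj := disj_aux hj0 k
      have hinj := inj_aux hj0 k
      have hsplit : (insert j0 J).powersetCard (k + 1)
          = J.powersetCard (k + 1) ∪ (J.powersetCard k).image (insert j0) :=
        powersetCard_succ_insert hj0 k
      have hcardN : ((insert j0 J).powersetCard (k + 1)).card
          = (J.powersetCard k).card + (J.powersetCard (k + 1)).card := by
        rw [hsplit, card_union_of_disjoint hdisj, card_image_of_injOn hinj, add_comm]
      by_cases hk : k + 1 ≤ J.card
      · -- main case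
        have hnA : 0 < (J.powersetCard k).card := by
          rw [card_powersetCard]; exact Nat.choose_pos (by omega)
        have hnB : 0 < (J.powersetCard (k + 1)).card := by
          rw [card_powersetCard]; exact Nat.choose_pos hk
        have hE : (J.powersetCard k).card * (J.card - k)
            = (J.powersetCard (k + 1)).card * (k + 1) := by
          rw [card_powersetCard, card_powersetCard]
          exact (Nat.choose_succ_right_eq J.card k).symm
        have hs1 : ∑ S ∈ (insert j0 J).powersetCard (k + 1), g S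
            = ∑ A ∈ J.powersetCard k, g (insert j0 A) + ∑ B ∈ J.powersetCard (k + 1), g B := by
          rw [hsplit, sum_union hdisj, sum_image hinj, add_comm]
        have hs2 : ∑ S ∈ (insert j0 J).powersetCard (k + 1), g S ^ 2
            = ∑ A ∈ J.powersetCard k, g (insert j0 A) ^ 2
              + ∑ B ∈ J.powersetCard (k + 1), g B ^ 2 := by
          rw [hsplit, sum_union hdisj, sum_image hinj, add_comm]
        -- Cauchy-Schwarz
        have hcs : (((J.card - k : ℕ) : ℝ) * ∑ A ∈ J.powersetCard k, g (insert j0 A)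
              - ((k + 1 : ℕ) : ℝ) * ∑ B ∈ J.powersetCard (k + 1), g B) ^ 2
            ≤ ((J.powersetCard k).card : ℝ) * ((J.card - k : ℕ) : ℝ)
              * ∑ A ∈ J.powersetCard k, ∑ j ∈ J \ A, (g (insert j0 A) - g (insert j A)) ^ 2 := by
          have hsd : ∀ A ∈ J.powersetCard k, (J \ A).card = J.card - k := by
            intro A hA
            rw [mem_powersetCard] at hA
            rw [card_sdiff_of_subset hA.1, hA.2]
          have e1 : ∑ A ∈ J.powersetCard k, ∑ j ∈ J \ A, (g (insert j0 A) - g (insert j A))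
              = ((J.card - k : ℕ) : ℝ) * ∑ A ∈ J.powersetCard k, g (insert j0 A)
                - ((k + 1 : ℕ) : ℝ) * ∑ B ∈ J.powersetCard (k + 1), g B := by
            have e2 : ∑ A ∈ J.powersetCard k, ∑ j ∈ J \ A, g (insert j A)
                = ((k + 1 : ℕ) : ℝ) * ∑ B ∈ J.powersetCard (k + 1), g B := by
              rw [swap_sum J k (fun A j => g (insert j A)), mul_sum]
              refine sum_congr rfl fun S hS => ?_
              rw [mem_powersetCard] at hS
              have e3 : ∑ i ∈ S, g (insert i (S.erase i)) = ∑ i ∈ S, g S :=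
                sum_congr rfl fun i hi => by rw [insert_erase hi]
              rw [e3, sum_const, hS.2, nsmul_eq_mul]
            have e4 : ∑ A ∈ J.powersetCard k, ∑ j ∈ J \ A, g (insert j0 A)
                = ((J.card - k : ℕ) : ℝ) * ∑ A ∈ J.powersetCard k, g (insert j0 A) := by
              rw [mul_sum]
              refine sum_congr rfl fun A hA => ?_
              rw [sum_const, hsd A hA, nsmul_eq_mul]
            rw [← e2, ← e4, ← sum_sub_distrib]
            refine sum_congr rfl fun A hA => ?_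
            rw [sum_sub_distrib]
          rw [← e1]
          calc (∑ A ∈ J.powersetCard k, ∑ j ∈ J \ A, (g (insert j0 A) - g (insert j A))) ^ 2
              ≤ ((J.powersetCard k).card : ℝ) * ∑ A ∈ J.powersetCard k,
                  (∑ j ∈ J \ A, (g (insert j0 A) - g (insert j A))) ^ 2 :=
                sq_sum_le_card_mul_sum_sq
            _ ≤ ((J.powersetCard k).card : ℝ) * ∑ A ∈ J.powersetCard k,
                  (((J.card - k : ℕ) : ℝ)
                    * ∑ j ∈ J \ A, (g (insert j0 A) - g (insert j A)) ^ 2) := by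
                refine mul_le_mul_of_nonneg_left (sum_le_sum fun A hA => ?_) (Nat.cast_nonneg _)
                have h0 := sq_sum_le_card_mul_sum_sq (s := J \ A)
                  (f := fun j => g (insert j0 A) - g (insert j A))
                rw [hsd A hA] at h0
                exact h0
            _ = _ := by rw [← mul_sum, mul_assoc]
        have hA := ih k (fun A => g (insert j0 A))
        have hB := ih (k + 1) g
        rw [jD_insert hj0 k g]
        unfold jV at hA hB ⊢
        rw [hs1, hs2, hcardN]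
        push_cast
        have hp1 : (1 : ℝ) ≤ ((J.card - k : ℕ) : ℝ) := by
          have h0 : 1 ≤ J.card - k := by omega
          exact_mod_cast h0
        have hq1 : (1 : ℝ) ≤ ((k + 1 : ℕ) : ℝ) := by
          have h0 : 1 ≤ k + 1 := by omega
          exact_mod_cast h0
        have hE' : ((J.powersetCard k).card : ℝ) * ((J.card - k : ℕ) : ℝ)
            = ((J.powersetCard (k + 1)).card : ℝ) * ((k + 1 : ℕ) : ℝ) := by
          exact_mod_cast hE
        exact johnson_alg _ _ _ _ _ _ _ _ _ _ _ (by exact_mod_cast hnA) (by exact_mod_cast hnB)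
          hp1 hq1 hE' hcs hA hB
      · -- degenerate case: at most one set
        have hc : ((insert j0 J).powersetCard (k + 1)).card ≤ 1 := by
          rw [hcardN, card_powersetCard, card_powersetCard,
            Nat.choose_eq_zero_of_lt (by omega : J.card < k + 1), add_zero]
          rcases Nat.lt_or_ge J.card k with h1 | h1
          · rw [Nat.choose_eq_zero_of_lt h1]; omega
          · have h2 : J.card = k := by omega
            rw [h2, Nat.choose_self]
        rw [jV_eq_zero_of_card_le_one _ _ hc]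
        rw [mul_zero]
        exact mul_nonneg (Nat.cast_nonneg _) (jD_nonneg (insert j0 J) (k + 1) g)

end Abstract

section Tables

variable {α β : Type*} [Fintype α] [DecidableEq α] [Fintype β] [DecidableEq β]

/-- Columns in which rows `a` and `b` of `x` differ. -/
def priv (a b : α) (x : Tab α β) : Finset β := univ.filter fun j => x a j ≠ x b j

/-- Columns with a one in row `a` and a zero in row `b`. -/
def ones (a b : α) (y : Tab α β) : Finset β :=
  univ.filter fun j => y a j = true ∧ y b j = false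

/-- Columns with a one in both rows. -/
def both (a b : α) (y : Tab α β) : Finset β :=
  univ.filter fun j => y a j = true ∧ y b j = true

/-- Rebuild rows `a, b` of `x` on the columns where they differ:
row `a` gets its ones exactly in `S`, row `b` in the complement. -/
def mk (a b : α) (x : Tab α β) (S : Finset β) : Tab α β := fun r j =>
  if x a j = x b j then x r j
  else if r = a then decide (j ∈ S) else if r = b then !decide (j ∈ S) else x r j

theorem mem_Omega_iff {ρ : α → ℕ} {c : β → ℕ} {x : Tab α β} :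
    x ∈ Omega ρ c ↔ (∀ a, rowSum x a = ρ a) ∧ ∀ j, colSum x j = c j := by
  simp [Omega]

theorem colSum_split {a b : α} (hab : a ≠ b) (x : Tab α β) (j : β) :
    colSum x j = (if x a j = true then 1 else 0) + ((if x b j = true then 1 else 0)
      + ∑ r ∈ (univ.erase a).erase b, if x r j = true then 1 else 0) := by
  unfold colSum
  rw [card_filter]
  have h1 := add_sum_erase univ (fun r => if x r j = true then (1 : ℕ) else 0) (mem_univ a)
  have h2 := add_sum_erase (univ.erase a) (fun r => if x r j = true then (1 : ℕ) else 0)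
    (mem_erase.mpr ⟨hab.symm, mem_univ b⟩)
  rw [← h1, ← h2]

theorem pair_eq {a b : α} (hab : a ≠ b) {x y : Tab α β} (hxy : AgreeOff {a, b} x y) {j : β}
    (hc : colSum x j = colSum y j) :
    (if x a j = true then 1 else 0) + (if x b j = true then 1 else 0)
      = (if y a j = true then 1 else 0) + (if y b j = true then 1 else 0) := by
  rw [colSum_split hab x j, colSum_split hab y j] at hc
  have h : ∑ r ∈ (univ.erase a).erase b, (if x r j = true then 1 else 0)
      = ∑ r ∈ (univ.erase a).erase b, if y r j = true then 1 else 0 := by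
    refine sum_congr rfl fun r hr => ?_
    have hr' : r ∉ ({a, b} : Finset α) := by
      simp only [mem_erase] at hr
      simp [hr.1, hr.2.1]
    rw [hxy r hr']
  omega

theorem pair_cases {a b : α} (hab : a ≠ b) {x y : Tab α β} (hxy : AgreeOff {a, b} x y) {j : β}
    (hc : colSum x j = colSum y j) :
    (x a j = x b j → y a j = x a j ∧ y b j = x b j) ∧ (x a j ≠ x b j → y a j ≠ y b j) := by
  have h := pair_eq hab hxy hc
  revert h
  cases x a j <;> cases x b j <;> cases y a j <;> cases y b j <;> simp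

theorem rowSum_split (a b : α) (y : Tab α β) :
    rowSum y a = (ones a b y).card + (both a b y).card := by
  unfold rowSum ones both
  rw [card_filter, card_filter, card_filter, ← sum_add_distrib]
  refine sum_congr rfl fun j _ => ?_
  cases y a j <;> cases y b j <;> simp

theorem rowSum_split' (a b : α) (y : Tab α β) :
    rowSum y b = (ones b a y).card + (both a b y).card := by
  unfold rowSum ones both
  rw [card_filter, card_filter, card_filter, ← sum_add_distrib]
  refine sum_congr rfl fun j _ => ?_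
  cases y a j <;> cases y b j <;> simp

theorem both_eq {a b : α} (hab : a ≠ b) {x y : Tab α β} (hxy : AgreeOff {a, b} x y)
    (hc : ∀ j, colSum x j = colSum y j) : both a b y = both a b x := by
  ext j
  simp only [both, mem_filter, mem_univ, true_and]
  have h := pair_cases hab hxy (hc j)
  revert h
  cases x a j <;> cases x b j <;> cases y a j <;> cases y b j <;> simp

theorem priv_eq {a b : α} (hab : a ≠ b) {x y : Tab α β} (hxy : AgreeOff {a, b} x y)
    (hc : ∀ j, colSum x j = colSum y j) : priv a b y = priv a b x := by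
  ext j
  simp only [priv, mem_filter, mem_univ, true_and]
  have h := pair_cases hab hxy (hc j)
  revert h
  cases x a j <;> cases x b j <;> cases y a j <;> cases y b j <;> simp

theorem ones_subset_priv (a b : α) (y : Tab α β) : ones a b y ⊆ priv a b y := by
  intro j hj
  simp only [ones, priv, mem_filter, mem_univ, true_and] at hj ⊢
  rw [hj.1, hj.2]; simp

theorem ones_swap (a b : α) (y : Tab α β) : ones b a y = priv a b y \ ones a b y := by
  ext j
  simp only [ones, priv, mem_sdiff, mem_filter, mem_univ, true_and]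
  cases y a j <;> cases y b j <;> simp

theorem card_ones_swap (a b : α) (y : Tab α β) :
    (ones b a y).card = (priv a b y).card - (ones a b y).card := by
  rw [ones_swap, card_sdiff_of_subset (ones_subset_priv a b y)]

theorem mk_ones {a b : α} (hab : a ≠ b) {x y : Tab α β} (hxy : AgreeOff {a, b} x y)
    (hc : ∀ j, colSum x j = colSum y j) : mk a b x (ones a b y) = y := by
  funext r j
  have h := pair_cases hab hxy (hc j)
  unfold mk
  by_cases hr : r = a
  · subst hr
    by_cases hp : x r j = x b j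
    · rw [if_pos hp]; exact (h.1 hp).1.symm
    · rw [if_neg hp, if_pos rfl]
      have h2 := h.2 hp
      simp only [ones, mem_filter, mem_univ, true_and]
      revert h2
      cases y r j <;> cases y b j <;> simp
  · by_cases hr' : r = b
    · subst hr'
      by_cases hp : x a j = x r j
      · rw [if_pos hp]; exact (h.1 hp).2.symm
      · rw [if_neg hp, if_neg hr, if_pos rfl]
        have h2 := h.2 hp
        simp only [ones, mem_filter, mem_univ, true_and]
        revert h2
        cases y a j <;> cases y r j <;> simp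
    · have hr2 : r ∉ ({a, b} : Finset α) := by simp [hr, hr']
      have h3 := hxy r hr2
      by_cases hp : x a j = x b j
      · rw [if_pos hp, h3]
      · rw [if_neg hp, if_neg hr, if_neg hr', h3]

theorem ones_mk {a b : α} (hab : a ≠ b) (x : Tab α β) {S : Finset β} (hS : S ⊆ priv a b x) :
    ones a b (mk a b x S) = S := by
  ext j
  simp only [ones, mk, mem_filter, mem_univ, true_and]
  by_cases hp : x a j = x b j
  · have hjS : j ∉ S := fun hj => by
      have h0 := hS hj
      simp only [priv, mem_filter, mem_univ, true_and] at h0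
      exact h0 hp
    simp only [if_pos hp]
    rw [hp]
    simp [hjS]
  · simp [hp, hab.symm]

theorem agreeOff_mk (a b : α) (x : Tab α β) (S : Finset β) :
    AgreeOff {a, b} x (mk a b x S) := by
  intro r hr
  have hra : r ≠ a := fun h => hr (by simp [h])
  have hrb : r ≠ b := fun h => hr (by simp [h])
  funext j
  simp [mk, hra, hrb]

theorem colSum_mk {a b : α} (hab : a ≠ b) (x : Tab α β) (S : Finset β) (j : β) :
    colSum x j = colSum (mk a b x S) j := by
  rw [colSum_split hab (mk a b x S) j, colSum_split hab x j]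
  have h : ∑ r ∈ (univ.erase a).erase b, (if mk a b x S r j = true then 1 else 0)
      = ∑ r ∈ (univ.erase a).erase b, if x r j = true then 1 else 0 := by
    refine sum_congr rfl fun r hr => ?_
    simp only [mem_erase] at hr
    simp [mk, hr.1, hr.2.1]
  rw [h, ← add_assoc, ← add_assoc]
  congr 1
  by_cases hp : x a j = x b j
  · simp [mk, hp]
  · have hp' : x a j ≠ x b j := hp
    simp only [mk, if_neg hp, if_true, if_neg hab.symm]
    revert hp'
    by_cases hj : j ∈ S <;> cases x a j <;> cases x b j <;> simp [hj]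

theorem priv_mk {a b : α} (hab : a ≠ b) (x : Tab α β) (S : Finset β) :
    priv a b (mk a b x S) = priv a b x :=
  priv_eq hab (agreeOff_mk a b x S) (colSum_mk hab x S)

theorem mk_mem_Omega {ρ : α → ℕ} {c : β → ℕ} {a b : α} (hab : a ≠ b) {x : Tab α β}
    (hx : x ∈ Omega ρ c) {S : Finset β} (hS : S ⊆ priv a b x)
    (hcard : S.card = (ones a b x).card) : mk a b x S ∈ Omega ρ c := by
  rw [mem_Omega_iff] at hx ⊢
  have hagree := agreeOff_mk a b x S
  have hcol := colSum_mk hab x S
  have hboth := both_eq hab hagree hcol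
  refine ⟨fun r => ?_, fun j => ?_⟩
  · rw [← hx.1 r]
    by_cases hra : r = a
    · subst hra
      rw [rowSum_split r b, rowSum_split r b x, hboth, ones_mk hab x hS, hcard]
    · by_cases hrb : r = b
      · subst hrb
        rw [rowSum_split' a r, rowSum_split' a r x, hboth, card_ones_swap a r (mk a r x S),
          card_ones_swap a r x, priv_mk hab, ones_mk hab x hS, hcard]
      · have hr2 : r ∉ ({a, b} : Finset α) := by simp [hra, hrb]
        unfold rowSum
        rw [← hagree r hr2]
  · rw [← hcol j]; exact hx.2 j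

theorem switchAt_mk {a b : α} (hab : a ≠ b) (x : Tab α β) {S : Finset β}
    (hS : S ⊆ priv a b x) {i j : β} (hi : i ∈ S) (hj : j ∈ priv a b x) (hjS : j ∉ S) :
    SwitchAt a b i j (mk a b x S) (mk a b x (insert j (S.erase i))) := by
  have hip : ¬ x a i = x b i := by
    have h0 := hS hi
    simpa only [priv, mem_filter, mem_univ, true_and] using h0
  have hjp : ¬ x a j = x b j := by
    simpa only [priv, mem_filter, mem_univ, true_and] using hj
  have hij : i ≠ j := fun h => hjS (h ▸ hi)
  refine ⟨hab, hij, ?_, ?_, ?_, ?_, ?_, ?_, ?_, ?_, ?_⟩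
  · simp [mk, hip, hi]
  · simp [mk, hjp, hab.symm, hjS]
  · simp [mk, hjp, hjS]
  · simp [mk, hip, hab.symm, hi]
  · simp [mk, hip, hij]
  · simp [mk, hjp, hab.symm]
  · simp [mk, hjp]
  · simp [mk, hip, hab.symm, hij]
  · intro r s hrs
    unfold mk
    by_cases hp : x a s = x b s
    · simp [hp]
    · simp only [if_neg hp]
      by_cases hra : r = a
      · have hsi : s ≠ i := fun h => hrs ⟨Or.inl hra, Or.inl h⟩
        have hsj : s ≠ j := fun h => hrs ⟨Or.inl hra, Or.inr h⟩
        simp [hra, hsi, hsj]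
      · by_cases hrb : r = b
        · have hsi : s ≠ i := fun h => hrs ⟨Or.inr hrb, Or.inl h⟩
          have hsj : s ≠ j := fun h => hrs ⟨Or.inr hrb, Or.inr h⟩
          simp [hrb, hab.symm, hsi, hsj]
        · simp [hra, hrb]

theorem mem_fibre_iff {ρ : α → ℕ} {c : β → ℕ} {S : Finset α} {x y : Tab α β} :
    y ∈ fibre (Omega ρ c) S x ↔ y ∈ Omega ρ c ∧ AgreeOff S x y := by
  simp [fibre]

theorem fibre_maps {ρ : α → ℕ} {c : β → ℕ} {a b : α} (hab : a ≠ b) {x0 : Tab α β}
    (hx0 : x0 ∈ Omega ρ c) {y : Tab α β} (hy : y ∈ fibre (Omega ρ c) {a, b} x0) :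
    ones a b y ∈ (priv a b x0).powersetCard (ones a b x0).card
      ∧ mk a b x0 (ones a b y) = y := by
  rw [mem_fibre_iff] at hy
  obtain ⟨hyΩ, hag⟩ := hy
  have hx := mem_Omega_iff.mp hx0
  have hy' := mem_Omega_iff.mp hyΩ
  have hcol : ∀ j, colSum x0 j = colSum y j := fun j => by rw [hx.2 j, hy'.2 j]
  refine ⟨?_, mk_ones hab hag hcol⟩
  rw [mem_powersetCard]
  constructor
  · rw [← priv_eq hab hag hcol]; exact ones_subset_priv a b y
  · have h1 := rowSum_split a b y
    have h2 := rowSum_split a b x0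
    rw [both_eq hab hag hcol, hy'.1 a] at h1
    rw [hx.1 a] at h2
    omega

theorem powerset_maps {ρ : α → ℕ} {c : β → ℕ} {a b : α} (hab : a ≠ b) {x0 : Tab α β}
    (hx0 : x0 ∈ Omega ρ c) {S : Finset β}
    (hS : S ∈ (priv a b x0).powersetCard (ones a b x0).card) :
    mk a b x0 S ∈ fibre (Omega ρ c) {a, b} x0 ∧ ones a b (mk a b x0 S) = S := by
  rw [mem_powersetCard] at hS
  exact ⟨mem_fibre_iff.mpr ⟨mk_mem_Omega hab hx0 hS.1 hS.2, agreeOff_mk a b x0 S⟩,
    ones_mk hab x0 hS.1⟩

theorem sum_fibre {ρ : α → ℕ} {c : β → ℕ} {a b : α} (hab : a ≠ b) {x0 : Tab α β}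
    (hx0 : x0 ∈ Omega ρ c) (H : Tab α β → ℝ) :
    ∑ x ∈ fibre (Omega ρ c) {a, b} x0, H x
      = ∑ S ∈ (priv a b x0).powersetCard (ones a b x0).card, H (mk a b x0 S) := by
  refine sum_nbij' (ones a b) (mk a b x0) ?_ ?_ ?_ ?_ ?_
  · intro y hy; exact (fibre_maps hab hx0 hy).1
  · intro S hS; exact (powerset_maps hab hx0 hS).1
  · intro y hy; exact (fibre_maps hab hx0 hy).2
  · intro S hS; exact (powerset_maps hab hx0 hS).2
  · intro y hy; rw [(fibre_maps hab hx0 hy).2]

theorem card_fibre {ρ : α → ℕ} {c : β → ℕ} {a b : α} (hab : a ≠ b) {x0 : Tab α β}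
    (hx0 : x0 ∈ Omega ρ c) :
    (fibre (Omega ρ c) {a, b} x0).card
      = ((priv a b x0).powersetCard (ones a b x0).card).card := by
  refine card_nbij' (ones a b) (mk a b x0) ?_ ?_ ?_ ?_
  · intro y hy; exact (fibre_maps hab hx0 hy).1
  · intro S hS; exact (powerset_maps hab hx0 hS).1
  · intro y hy; exact (fibre_maps hab hx0 hy).2
  · intro S hS; exact (powerset_maps hab hx0 hS).2

theorem switch_sum_ge {ρ : α → ℕ} {c : β → ℕ} {a b : α} (hab : a ≠ b) {x0 : Tab α β}
    (hx0 : x0 ∈ Omega ρ c) (f : Tab α β → ℝ)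
    [∀ x : Tab α β, DecidablePred (SwitchRows a b x)] {S : Finset β}
    (hS : S ∈ (priv a b x0).powersetCard (ones a b x0).card) :
    ∑ i ∈ S, ∑ j ∈ priv a b x0 \ S,
        (f (mk a b x0 S) - f (mk a b x0 (insert j (S.erase i)))) ^ 2
      ≤ ∑ y ∈ (Omega ρ c).filter (SwitchRows a b (mk a b x0 S)),
          (f (mk a b x0 S) - f y) ^ 2 := by
  have hS' := mem_powersetCard.mp hS
  rw [← sum_product' S (priv a b x0 \ S)
    (fun i j => (f (mk a b x0 S) - f (mk a b x0 (insert j (S.erase i)))) ^ 2)]
  have hins : ∀ p ∈ S ×ˢ (priv a b x0 \ S),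
      insert p.2 (S.erase p.1) ∈ (priv a b x0).powersetCard (ones a b x0).card := by
    rintro ⟨i, j⟩ hp
    simp only [mem_product, mem_sdiff] at hp
    obtain ⟨hi, hj, hjS⟩ := hp
    rw [mem_powersetCard]
    constructor
    · exact insert_subset hj ((erase_subset _ _).trans hS'.1)
    · have hjS' : j ∉ S.erase i := fun h => hjS (mem_of_mem_erase h)
      rw [card_insert_of_notMem hjS', card_erase_of_mem hi, ← hS'.2]
      have hpos : 0 < S.card := card_pos.mpr ⟨i, hi⟩
      omega
  have hinj : Set.InjOn (fun p : β × β => mk a b x0 (insert p.2 (S.erase p.1)))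
      (S ×ˢ (priv a b x0 \ S) : Finset (β × β)) := by
    rintro ⟨i, j⟩ hp ⟨i', j'⟩ hp' h
    have e1 := (powerset_maps hab hx0 (hins _ hp)).2
    have e2 := (powerset_maps hab hx0 (hins _ hp')).2
    simp only at h e1 e2
    rw [h, e2] at e1
    simp only [mem_coe, mem_product, mem_sdiff] at hp hp'
    obtain ⟨hi, hj, hjS⟩ := hp
    obtain ⟨hi', hj', hjS'⟩ := hp'
    have hjj : j = j' := by
      have h0 : j ∈ insert j' (S.erase i') := by rw [e1]; exact mem_insert_self _ _
      rcases mem_insert.mp h0 with h1 | h1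
      · exact h1
      · exact absurd (mem_of_mem_erase h1) hjS
    have hii : i = i' := by
      by_contra hne
      have h0 : i ∈ insert j' (S.erase i') := mem_insert_of_mem (mem_erase.mpr ⟨hne, hi⟩)
      rw [e1] at h0
      rcases mem_insert.mp h0 with h1 | h1
      · exact hjS (h1 ▸ hi)
      · exact notMem_erase _ _ h1
    rw [hii, hjj]
  have himg := sum_image (f := fun y => (f (mk a b x0 S) - f y) ^ 2) hinj
  rw [← himg]
  refine sum_le_sum_of_subset_of_nonneg ?_ (fun y _ _ => sq_nonneg _)
  intro y hy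
  rw [mem_image] at hy
  obtain ⟨⟨i, j⟩, hp, rfl⟩ := hy
  have hp2 := hp
  simp only [mem_product, mem_sdiff] at hp2
  obtain ⟨hi, hj, hjS⟩ := hp2
  rw [mem_filter]
  refine ⟨?_, i, j, switchAt_mk hab x0 hS'.1 hi hj hjS⟩
  have h0 := (powerset_maps hab hx0 (hins _ hp)).1
  exact (mem_fibre_iff.mp h0).1

theorem fibre_johnson (ρ : α → ℕ) (c : β → ℕ) {a b : α} (hab : a ≠ b) (f : Tab α β → ℝ)
    [∀ x : Tab α β, DecidablePred (SwitchRows a b x)]
    {x0 : Tab α β} (hx0 : x0 ∈ Omega ρ c) :
    4 * jV (fibre (Omega ρ c) {a, b} x0) f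
      ≤ ((fibre (Omega ρ c) {a, b} x0).card : ℝ) *
        ∑ x ∈ fibre (Omega ρ c) {a, b} x0,
          ∑ y ∈ (Omega ρ c).filter (SwitchRows a b x), (f x - f y) ^ 2 := by
  have hJ := johnson_abs (priv a b x0) (ones a b x0).card (fun S => f (mk a b x0 S))
  have hV : jV (fibre (Omega ρ c) {a, b} x0) f
      = jV ((priv a b x0).powersetCard (ones a b x0).card) (fun S => f (mk a b x0 S)) := by
    unfold jV
    rw [card_fibre hab hx0, sum_fibre hab hx0 f, sum_fibre hab hx0 (fun x => f x ^ 2)]
  rw [hV, card_fibre hab hx0, sum_fibre hab hx0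
    (fun x => ∑ y ∈ (Omega ρ c).filter (SwitchRows a b x), (f x - f y) ^ 2)]
  refine hJ.trans (mul_le_mul_of_nonneg_left ?_ (Nat.cast_nonneg _))
  unfold jD
  exact sum_le_sum fun S hS => switch_sum_ge hab hx0 f hS

/-- The table `x` with rows `a` and `b` blanked: the label of its two-row fibre. -/
def lab2 (a b : α) (x : Tab α β) : Tab α β :=
  fun r => if r = a ∨ r = b then fun _ => false else x r

theorem agreeOff_iff_lab {a b : α} {x y : Tab α β} :
    AgreeOff {a, b} x y ↔ lab2 a b x = lab2 a b y := by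
  constructor
  · intro h
    funext r
    unfold lab2
    by_cases hr : r = a ∨ r = b
    · rw [if_pos hr, if_pos hr]
    · rw [if_neg hr, if_neg hr]
      exact h r (by simpa using hr)
  · intro h r hr
    have hr' : ¬ (r = a ∨ r = b) := by simpa using hr
    have h0 := congrFun h r
    unfold lab2 at h0
    rwa [if_neg hr', if_neg hr'] at h0

end Tables

end JD

section Main

open JD

variable {α β : Type*} [Fintype α] [DecidableEq α] [Fintype β] [DecidableEq β]

/-- (D) two-row fibres (Johnson graphs) have Laplacian gap at least 2. -/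
theorem johnson (ρ : α → ℕ) (c : β → ℕ) {a b : α} (hab : a ≠ b) (f : Tab α β → ℝ) :
    4 * ∑ x ∈ Omega ρ c, (f x - cexp (Omega ρ c) {a, b} f x) ^ 2
      ≤ dirichlet (Omega ρ c) (SwitchRows a b) f := by
  classical
  unfold dirichlet
  have hmaps : ∀ x ∈ Omega ρ c, lab2 a b x ∈ (Omega ρ c).image (lab2 a b) :=
    fun x hx => mem_image_of_mem _ hx
  have e1 := sum_fiberwise_of_maps_to hmaps
    (fun x => (f x - cexp (Omega ρ c) {a, b} f x) ^ 2)
  have e2 := sum_fiberwise_of_maps_to hmaps
    (fun x => ∑ y ∈ (Omega ρ c).filter (SwitchRows a b x), (f x - f y) ^ 2)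
  rw [← e1, ← e2, mul_sum]
  refine sum_le_sum fun l hl => ?_
  obtain ⟨x0, hx0, rfl⟩ := mem_image.mp hl
  have hF : (Omega ρ c).filter (fun x => lab2 a b x = lab2 a b x0)
      = fibre (Omega ρ c) {a, b} x0 := by
    unfold fibre
    refine filter_congr fun x _ => ?_
    rw [agreeOff_iff_lab]; exact eq_comm
  rw [hF]
  have hcexp : ∀ x ∈ fibre (Omega ρ c) {a, b} x0,
      cexp (Omega ρ c) {a, b} f x = cexp (Omega ρ c) {a, b} f x0 := by
    intro x hx
    have hx' := (mem_fibre_iff.mp hx).2
    have h0 : fibre (Omega ρ c) {a, b} x = fibre (Omega ρ c) {a, b} x0 := by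
      unfold fibre
      refine filter_congr fun y _ => ?_
      rw [agreeOff_iff_lab, agreeOff_iff_lab, agreeOff_iff_lab.mp hx']
    unfold cexp
    rw [h0]
  rw [sum_congr rfl fun x hx => by rw [hcexp x hx]]
  have hx0F : x0 ∈ fibre (Omega ρ c) {a, b} x0 :=
    mem_fibre_iff.mpr ⟨hx0, fun _ _ => rfl⟩
  have hn : (0 : ℝ) < ((fibre (Omega ρ c) {a, b} x0).card : ℝ) := by
    exact_mod_cast card_pos.mpr ⟨x0, hx0F⟩
  have key : ((fibre (Omega ρ c) {a, b} x0).card : ℝ)
      * ∑ x ∈ fibre (Omega ρ c) {a, b} x0, (f x - cexp (Omega ρ c) {a, b} f x0) ^ 2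
      = jV (fibre (Omega ρ c) {a, b} x0) f := by
    unfold cexp jV
    simp only [sub_sq, sum_add_distrib, sum_sub_distrib, ← mul_sum, ← sum_mul, sum_const,
      nsmul_eq_mul]
    field_simp
    ring
  have hfj := fibre_johnson ρ c hab f hx0
  have h1 : ((fibre (Omega ρ c) {a, b} x0).card : ℝ)
      * (4 * ∑ x ∈ fibre (Omega ρ c) {a, b} x0, (f x - cexp (Omega ρ c) {a, b} f x0) ^ 2)
      ≤ ((fibre (Omega ρ c) {a, b} x0).card : ℝ)
        * ∑ x ∈ fibre (Omega ρ c) {a, b} x0,
          ∑ y ∈ (Omega ρ c).filter (SwitchRows a b x), (f x - f y) ^ 2 := by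
    rw [mul_left_comm, key]; exact hfj
  exact le_of_mul_le_mul_left h1 hn

end Main

end KTV
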